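import Vale.Agent.P159.Defs

/-!
Statements for the near critical window.
-/

namespace Vale.Agent.P159.T1.NW

open Vale.Agent.P159

/-- lower bound with the exponent `κ` of the critical point in the near critical window -/
def Win (κ : ℝ) : Prop :=
  ∀ ε : ℝ, 0 < ε → ∃ c : ℝ, 0 < c ∧ ∀ b : ℝ, 0 < b → b ≤ bCrit → ∀ x : ℤ × ℤ, x ≠ 0 →
    (bCrit - b) * ((max |x.1| |x.2| : ℤ) : ℝ) ^ (2 - 2 * κ + ε) ≤ c →
    c * ((max |x.1| |x.2| : ℤ) : ℝ) ^ (-(κ + ε)) ≤ corrInf b x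

/-- growth of the susceptibility from the window -/
def StmtChi : Prop :=
  ∀ κ : ℝ, 0 < κ → κ ≤ 1 / 4 → Win κ → ∀ γ : ℝ, 0 < γ → γ * (2 - 2 * κ) < 2 - κ →
    ∃ c : ℝ, 0 < c ∧ ∀ b : ℝ, 0 < b → b < bCrit →
      Summable (corrInf b) ∧ c * (bCrit - b) ^ (-γ) ≤ ∑' x : ℤ × ℤ, corrInf b x

end Vale.Agent.P159.T1.NW
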