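import Vale.Agent.P159.T1.NW.Window
import Vale.Agent.P159.T1.NW.Props2
import Vale.Agent.P159.T1.NW.H566.Sum

/-!
The near critical window: all sites, and both sides.
-/

open MeasureTheory Filter Topology
open scoped BigOperators

namespace Vale.Agent.P159.T1.NW

open Vale.Agent.P159 Vale.Agent.P159.H950 Vale.Agent.P159.T1

lemma kap_pos : 0 < 1 / (2 * Real.pi * helicity bCrit) := by
  have hY := F.hel_pos (le_refl bCrit)
  have hpi := Real.pi_pos
  positivity

lemma kap_le : 1 / (2 * Real.pi * helicity bCrit) ≤ 1 / 4 := F.sharpFin.2.1.2.1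

lemma norm_one_le {x : ℤ × ℤ} (hx : x ≠ 0) : (1 : ℝ) ≤ ((max |x.1| |x.2| : ℤ) : ℝ) := by
  have : 1 ≤ max |x.1| |x.2| := by
    rw [Int.abs_eq_natAbs, Int.abs_eq_natAbs]
    by_contra hcon
    apply hx
    ext <;> simp only [Prod.fst_zero, Prod.snd_zero] <;> omega
  exact_mod_cast this

/-- **the window, all sites** -/
theorem win_all : Win (1 / (2 * Real.pi * helicity bCrit)) := by
  intro ε hε
  obtain ⟨c, hc, h⟩ := win_axis H566.stmtSum hε
  have hκ0 := kap_pos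
  have hκ4 := kap_le
  set κ : ℝ := 1 / (2 * Real.pi * helicity bCrit) with hκ
  have p1 : (0 : ℝ) < 2 ^ (-(2 - 2 * κ + ε)) := by positivity
  have p2 : (0 : ℝ) < 2 ^ (-(κ + ε)) := by positivity
  refine ⟨min (c * 2 ^ (-(2 - 2 * κ + ε))) (c * 2 ^ (-(κ + ε))), by positivity,
    fun b hb hbb x hx hw => ?_⟩
  have hm := norm_one_le hx
  set M : ℝ := ((max |x.1| |x.2| : ℤ) : ℝ) with hM
  have h1 : 1 ≤ x.1.natAbs + x.2.natAbs := by
    by_contra hcon
    apply hx
    ext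
    · show x.1 = 0
      omega
    · show x.2 = 0
      omega
  have hle : ((x.1.natAbs + x.2.natAbs : ℕ) : ℝ) ≤ 2 * M := by
    have e1 : |x.1| = (x.1.natAbs : ℤ) := (Int.natCast_natAbs x.1).symm
    have e2 : |x.2| = (x.2.natAbs : ℤ) := (Int.natCast_natAbs x.2).symm
    have m1 := le_max_left |x.1| |x.2|
    have m2 := le_max_right |x.1| |x.2|
    have h3 : ((x.1.natAbs + x.2.natAbs : ℕ) : ℤ) ≤ 2 * max |x.1| |x.2| := by
      push_cast
      omega
    have h4 : (((x.1.natAbs + x.2.natAbs : ℕ) : ℤ) : ℝ) ≤ ((2 * max |x.1| |x.2| : ℤ) : ℝ) :=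
      Int.cast_le.2 h3
    rw [Int.cast_natCast] at h4
    refine h4.trans (le_of_eq ?_)
    rw [Int.cast_mul]
    norm_num [hM]
  have hpos : (0 : ℝ) < ((x.1.natAbs + x.2.natAbs : ℕ) : ℝ) := by exact_mod_cast h1
  set r := x.1.natAbs + x.2.natAbs with hr
  have hM0 : 0 < M := by linarith
  have hwin : (bCrit - b) * (r : ℝ) ^ (2 - 2 * κ + ε) ≤ c := by
    have h5 : (r : ℝ) ^ (2 - 2 * κ + ε) ≤ 2 ^ (2 - 2 * κ + ε) * M ^ (2 - 2 * κ + ε) := by
      rw [← Real.mul_rpow (by norm_num) hM0.le]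
      exact Real.rpow_le_rpow hpos.le hle (by linarith)
    have h6 : (bCrit - b) * (r : ℝ) ^ (2 - 2 * κ + ε) ≤
        2 ^ (2 - 2 * κ + ε) * ((bCrit - b) * M ^ (2 - 2 * κ + ε)) := by
      refine (mul_le_mul_of_nonneg_left h5 (by linarith)).trans (le_of_eq ?_)
      ring
    refine h6.trans ((mul_le_mul_of_nonneg_left (hw.trans (min_le_left _ _))
      (by positivity)).trans (le_of_eq ?_))
    rw [mul_left_comm, ← Real.rpow_add (by norm_num), add_neg_cancel, Real.rpow_zero, mul_one]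
  have h2 := (h b hb hbb r h1 hwin).trans (F.mms_all b hb.le x.1.natAbs x.2.natAbs)
  rw [← F.corrInf_abs hb.le] at h2
  refine le_trans ?_ h2
  have h7 : (0 : ℝ) ≤ M ^ (-(κ + ε)) := Real.rpow_nonneg hM0.le _
  refine (mul_le_mul_of_nonneg_right (min_le_right _ _) h7).trans ?_
  rw [mul_assoc, ← Real.mul_rpow (by norm_num) hM0.le]
  refine mul_le_mul_of_nonneg_left ?_ hc.le
  exact Real.rpow_le_rpow_of_nonpos hpos hle (by linarith)

/-- upper bound at the critical point, logarithmic form -/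
theorem crit_up {ε : ℝ} (hε : 0 < ε) : ∃ K : ℝ, ∀ x : ℤ × ℤ, x ≠ 0 →
    Real.log (corrInf bCrit x) ≤ -(1 / (2 * Real.pi * helicity bCrit) - ε) *
      Real.log ((max |x.1| |x.2| : ℤ) : ℝ) + K := by
  obtain ⟨K, hK⟩ := F.sharpFin.2.2.2.2.2 bCrit le_rfl 2 ![1, -1] (by simp) ε hε
  refine ⟨K, fun x hx => ?_⟩
  have hm := norm_one_le hx
  have hN : 1 ≤ (max |x.1| |x.2|).toNat := by
    have h1 : (1 : ℤ) ≤ max |x.1| |x.2| := by exact_mod_cast hm
    omega
  have hcast : (((max |x.1| |x.2|).toNat : ℕ) : ℤ) = max |x.1| |x.2| := by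
    apply Int.toNat_of_nonneg
    exact (abs_nonneg x.1).trans (le_max_left _ _)
  obtain ⟨hp, h1⟩ := hK ![0, x] (max |x.1| |x.2|).toNat hN (by
    intro i j
    rw [hcast]
    fin_cases i <;> fin_cases j <;> simp)
  have hcR : (((max |x.1| |x.2|).toNat : ℕ) : ℝ) = ((max |x.1| |x.2| : ℤ) : ℝ) := by
    have h2 := congrArg (fun z : ℤ => (z : ℝ)) hcast
    simpa only [Int.cast_natCast] using h2
  rw [hcR, chargeInf_one] at h1
  have h2 := (abs_le.1 h1).2
  have e2 : ∀ y : ℤ × ℤ, Real.log (max 1 ((max |y.1| |y.2| : ℤ) : ℝ)) = ll y := fun _ => rfl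
  simp_rw [e2] at h2
  simp only [Fin.sum_univ_two, Matrix.cons_val_zero, Matrix.cons_val_one,
    sub_self, ll_zero, zero_sub, sub_zero, ll_neg] at h2
  have e3 : ll x = Real.log ((max |x.1| |x.2| : ℤ) : ℝ) := by
    unfold ll
    rw [max_eq_right hm]
  rw [e3] at h2
  have hY := F.hel_pos (le_refl bCrit)
  have hpi := Real.pi_pos
  have e4 : 1 / (4 * Real.pi * helicity bCrit) = 1 / (2 * Real.pi * helicity bCrit) / 2 := by
    field_simp
    norm_num
  rw [e4] at h2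
  push_cast at h2 ⊢
  nlinarith [h2]

/-- **the window, both sides** -/
theorem win_two {ν : ℝ} (hν : 0 < ν) (hν1 : ν * (2 - 2 * (1 / (2 * Real.pi * helicity bCrit))) < 1)
    {ε : ℝ} (hε : 0 < ε) : ∃ δ : ℝ, 0 < δ ∧ ∃ K : ℝ, ∀ b : ℝ, bCrit - δ < b → b < bCrit →
      ∀ x : ℤ × ℤ, x ≠ 0 → ((max |x.1| |x.2| : ℤ) : ℝ) ≤ (bCrit - b) ^ (-ν) →
        |Real.log (corrInf b x) + 1 / (2 * Real.pi * helicity bCrit) *
          Real.log ((max |x.1| |x.2| : ℤ) : ℝ)| ≤
          ε * Real.log ((max |x.1| |x.2| : ℤ) : ℝ) + K := by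
  have hbc := H170.bCrit_pos
  have hκ0 := kap_pos
  have hκ4 := kap_le
  obtain ⟨K1, hK1⟩ := crit_up hε
  set κ : ℝ := 1 / (2 * Real.pi * helicity bCrit) with hκ
  set s : ℝ := (1 - ν * (2 - 2 * κ)) / 2 with hs
  have hs0 : 0 < s := by
    rw [hs]
    linarith
  set η : ℝ := min ε (s / ν) with hη
  have hη0 : 0 < η := lt_min hε (by positivity)
  obtain ⟨c, hc, h⟩ := win_all η hη0
  rw [← hκ] at h
  have hνη : ν * η ≤ s := by
    have := mul_le_mul_of_nonneg_left (min_le_right ε (s / ν)) hν.le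
    rw [mul_div_cancel₀ s hν.ne'] at this
    exact this
  -- the width of the window
  have hlim : Tendsto (fun t : ℝ => t ^ s) (𝓝[>] 0) (𝓝 0) := by
    have h1 : Tendsto (fun t : ℝ => t ^ s) (𝓝 0) (𝓝 ((0 : ℝ) ^ s)) :=
      (Real.continuousAt_rpow_const 0 s (Or.inr hs0.le)).tendsto
    rw [Real.zero_rpow hs0.ne'] at h1
    exact h1.mono_left nhdsWithin_le_nhds
  have hev : ∀ᶠ t in 𝓝[>] (0 : ℝ), t ^ s < c := hlim.eventually_lt_const hc
  obtain ⟨δ0, hδ0, hδ1⟩ := (mem_nhdsGT_iff_exists_Ioo_subset.1 hev)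
  have hδ0' : (0 : ℝ) < δ0 := hδ0
  refine ⟨min (min δ0 1) bCrit, by positivity, max K1 (-Real.log c), fun b hb1 hb2 x hx hw => ?_⟩
  have d1 : bCrit - b < δ0 := by
    have := (min_le_left (min δ0 1) bCrit).trans (min_le_left _ _)
    linarith
  have d2 : bCrit - b < 1 := by
    have := (min_le_left (min δ0 1) bCrit).trans (min_le_right _ _)
    linarith
  have d3 : 0 < b := by
    have := min_le_right (min δ0 1) bCrit
    linarith
  have d4 : 0 < bCrit - b := by linarith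
  have d5 : (bCrit - b) ^ s < c := hδ1 ⟨d4, d1⟩
  have hm := norm_one_le hx
  have hK1x := hK1 x hx
  set M : ℝ := ((max |x.1| |x.2| : ℤ) : ℝ) with hM
  have hM0 : 0 < M := by linarith
  have hL : 0 ≤ Real.log M := Real.log_nonneg hm
  have hwin : (bCrit - b) * M ^ (2 - 2 * κ + η) ≤ c := by
    have h1 : M ^ (2 - 2 * κ + η) ≤ ((bCrit - b) ^ (-ν)) ^ (2 - 2 * κ + η) :=
      Real.rpow_le_rpow hM0.le hw (by linarith)
    have h2 : (bCrit - b) * ((bCrit - b) ^ (-ν)) ^ (2 - 2 * κ + η) =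
        (bCrit - b) ^ (1 + -ν * (2 - 2 * κ + η)) := by
      rw [← Real.rpow_mul d4.le, Real.rpow_add d4, Real.rpow_one]
    refine (mul_le_mul_of_nonneg_left h1 d4.le).trans ?_
    rw [h2]
    refine (Real.rpow_le_rpow_of_exponent_ge d4 d2.le ?_).trans d5.le
    have : s = (1 - ν * (2 - 2 * κ)) / 2 := hs
    nlinarith
  have h3 := h b d3 hb2.le x hx hwin
  have hpos : 0 < c * M ^ (-(κ + η)) := by positivity
  have hC0 : 0 < corrInf b x := hpos.trans_le h3
  have h4 := Real.log_le_log hpos h3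
  rw [Real.log_mul hc.ne' (by positivity), Real.log_rpow hM0] at h4
  have h5 : Real.log (corrInf b x) ≤ Real.log (corrInf bCrit x) := by
    apply Real.log_le_log hC0
    rw [XY.corrInf_eq d3.le, XY.corrInf_eq hbc.le]
    exact XY.C_mono_b d3.le hb2.le x
  have hηε : η ≤ ε := min_le_left _ _
  have g1 := le_max_left K1 (-Real.log c)
  have g2 := le_max_right K1 (-Real.log c)
  rw [abs_le]
  constructor
  · nlinarith
  · nlinarith

end Vale.Agent.P159.T1.NW
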