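import Vale.Agent.P159.T1.NW.Top

/-!
The sharp lower bound on the axis in a box.
-/

open Filter Topology

namespace Vale.Agent.P159.T1.NW

open Vale.Agent.P159 Vale.Agent.P159.H353 Vale.Agent.P159.T1 Vale.Agent.P159.T1.D
open Vale.Agent.P159.T1.D.H172 Vale.Agent.P159.T1.D.H598 Vale.Agent.P159.T1.D.H802
open Vale.Agent.P159.T1.H598 Vale.Agent.P159.T1.H934 Vale.Agent.P159.T1.S
open Vale.Agent.P159.T1.S.H598 Vale.Agent.P159.T1.D.H857

/-- the sharp lower bound on the axis, at large distances, in a box of a comparable size -/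
theorem axisBox (hL1 : StmtL1) (hLow : StmtLowP) (hUp : StmtUpM) {b : ℝ}
    (hb : bCrit ≤ b) {ε : ℝ} (hε : 0 < ε) : ∃ c : ℝ, 0 < c ∧ ∃ A r0 : ℕ, 1 ≤ r0 ∧ ∀ r : ℕ, r0 ≤ r →
      c * (r : ℝ) ^ (-(1 / (2 * Real.pi * helicity b) + ε)) ≤ corr (r + A * r) b ((r : ℤ), 0) := by
  have hb0 : 0 < b := H170.bCrit_pos.trans_le hb
  have hpi := Real.pi_pos
  have hY2 := helicity_ge hb
  have hY : 0 < helicity b := lt_of_lt_of_le (by positivity) hY2
  have hε5 : 0 < ε / 5 := by positivity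
  obtain ⟨V, κ, x, y, s, c1, q, n1, A0, hV, hPar, hn1⟩ := hL1 b (ε / 5) hb hε5
  obtain ⟨n2, hn2⟩ := hLow b V (ε / 5) κ x y s c1 q hb hV hε5 hPar
  obtain ⟨n3, hn3⟩ := hUp b V (ε / 5) κ x y s c1 q hb hV hε5 hPar
  obtain ⟨C1, r1, h1⟩ := hn1 (n1 + n2 + n3) (by omega)
  obtain ⟨C2, r2, h2⟩ := hn2 (n1 + n2 + n3) (by omega)
  obtain ⟨C3, r3, h3⟩ := hn3 (n1 + n2 + n3) (by omega)
  set n0 := n1 + n2 + n3
  set C := max C1 (max C2 C3) with hC
  have m1 : C1 ≤ C := le_max_left _ _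
  have m2 : C2 ≤ C := (le_max_left _ _).trans (le_max_right _ _)
  have m3 : C3 ≤ C := (le_max_right _ _).trans (le_max_right _ _)
  have hd : 0 < ang q := by
    have : (0 : ℝ) < q := by exact_mod_cast hPar.1
    unfold ang
    exact Real.arctan_pos.2 (by positivity)
  refine ⟨Real.exp (-(5 * C)), Real.exp_pos _, A0 + 1, r1 + r2 + r3 + 2, by omega,
    fun r hr => ?_⟩
  have hr1 : 1 ≤ r := by omega
  have hrR : (0 : ℝ) < r := by exact_mod_cast hr1
  set A := A0 + 1 with hA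
  have hA1 : 1 ≤ A := by omega
  have hAr : r ≤ A * r := Nat.le_mul_of_pos_left r (by omega)
  have hR1 : 1 ≤ A * r := by omega
  set U := SB (A * r) r with hU
  have hz : 0 < Z b U := Z_pos hR1 hr1 hb0
  set ρ := rp (helicity b) V q n0 r κ x y s c1 with hρ
  have k1 := h1 A r (by omega) (by omega)
  have k2 := h2 A r hA1 (by omega)
  have k3 := h3 A r hA1 (by omega)
  -- logarithms
  have g1 : 2 * Real.log r / helicity b *
      (En (V - aq q) q + (V - aq q) / ang q - 1 / (4 * Real.pi)) -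
      (ε / 5 * Real.log r + C) ≤ (∑ f ∈ U, ρ f) + lS b U (-1) ρ := by
    have hp := Zs_pos hR1 hr1 hb0 (-1) ρ
    unfold lS
    rw [← Real.log_exp (∑ f ∈ U, ρ f), ← Real.log_mul (Real.exp_pos _).ne' (div_pos hp hz).ne',
      Real.le_log_iff_exp_le (mul_pos (Real.exp_pos _) (div_pos hp hz)), ← mul_div_assoc,
      le_div_iff₀ hz]
    refine le_trans (mul_le_mul_of_nonneg_right (Real.exp_le_exp.2 ?_) hz.le) k1
    linarith
  have g0 : 2 * Real.log r / helicity b * En (V - aq q) q - (ε / 5 * Real.log r + C) ≤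
      lS b U 0 ρ := by
    apply lS_ge hb0
    refine le_trans (mul_le_mul_of_nonneg_right (Real.exp_le_exp.2 ?_) hz.le) k2
    linarith
  have g2 : 2 * (∑ f ∈ U, ρ f) + lS b U (-1) ((2 : ℝ) • ρ) ≤ 2 * Real.log r / helicity b *
      (4 * En (V - aq q) q + 2 * (V - aq q) / ang q - 1 / (4 * Real.pi)) +
      (ε / 5 * Real.log r + C) := by
    have hp := Zs_pos hR1 hr1 hb0 (-1) ((2 : ℝ) • ρ)
    unfold lS
    rw [← Real.log_exp (2 * ∑ f ∈ U, ρ f),
      ← Real.log_mul (Real.exp_pos _).ne' (div_pos hp hz).ne',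
      Real.log_le_iff_le_exp (mul_pos (Real.exp_pos _) (div_pos hp hz)), ← mul_div_assoc,
      div_le_iff₀ hz]
    refine le_trans k3 (mul_le_mul_of_nonneg_right (Real.exp_le_exp.2 ?_) hz.le)
    linarith
  have g := fin_alg hY hd g1 g0 g2 (lS_close hR1 hr1 hb0 ρ (-1))
  -- the correlation
  have h6 : Real.exp (-(1 / (2 * Real.pi * helicity b) * Real.log r +
      5 * (ε / 5 * Real.log r + C))) * Z b U ≤ corr (r + A * r) b ((r : ℤ), 0) * Z b U := by
    refine le_trans ?_ (top_box (isSlit_SB hR1 hr1) hb0.le (AU_SB (A * r) r))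
    rw [← Zs_neg_one]
    have hzs := Zs_pos hR1 hr1 hb0 (-1) 0
    rw [← le_div_iff₀ hz, ← Real.le_log_iff_exp_le (div_pos hzs hz)]
    exact g
  have h7 := le_of_mul_le_mul_right h6 hz
  refine le_trans (le_of_eq ?_) h7
  rw [Real.rpow_def_of_pos hrR, ← Real.exp_add]
  congr 1
  ring


end Vale.Agent.P159.T1.NW
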