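import Vale.Agent.P159.H556.Fields

/-!
The XY model with ferromagnetic couplings: the truncated correlation of two cosines of differences
is at most one half of the correlation of four charges.
-/

open MeasureTheory Filter Topology
open scoped BigOperators

set_option linter.unusedSectionVars false

namespace Vale.Agent.P159.T1.NW

open Vale.Agent.P159 Vale.Agent.P159.XY Vale.Agent.P159.H556

variable {V : Type*} [Fintype V]

/-- duplicated weight -/
noncomputable def W2 (J : V → V → ℝ) (p : (V → T) × (V → T)) : ℝ :=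
  Real.exp (energy J (p.1 + p.2) + energy J (p.1 - p.2))

theorem W2_cont (J : V → V → ℝ) : Continuous (W2 J) := by
  unfold W2 energy
  fun_prop

theorem W2_eq (J : V → V → ℝ) (p : (V → T) × (V → T)) :
    W2 J p = Real.exp (∑ i, fC J 0 0 0 0 i * (fA i p.1 * fB i p.2)) := by
  rw [← dup_energy]
  unfold W2
  congr 1
  simp

/-- duplicated integral of a product -/
noncomputable def I2 (J : V → V → ℝ) (F G : (V → T) → ℝ) : ℝ :=
  ∫ p : (V → T) × (V → T), (F p.1 * G p.2) * W2 J p ∂((haarV V).prod (haarV V))

theorem I2_nonneg (J : V → V → ℝ) (hJ : ∀ u v, 0 ≤ J u v) {F G : (V → T) → ℝ}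
    (hF : Continuous F) (hG : Continuous G) (mF : IsMono F) (mG : IsMono G) : 0 ≤ I2 J F G := by
  unfold I2
  simp_rw [W2_eq]
  exact pos_fAB J hJ (hc := 0) (hs := 0) (hc' := 0) (hs' := 0) (fun _ => le_refl _)
    (fun _ => le_refl _) (fun _ => le_refl _) (fun _ => le_refl _) hF hG mF mG

theorem I2_add_left (J : V → V → ℝ) {F F' G : (V → T) → ℝ} (hF : Continuous F)
    (hF' : Continuous F') (hG : Continuous G) :
    I2 J (fun α => F α + F' α) G = I2 J F G + I2 J F' G := by
  have := W2_cont J
  unfold I2
  rw [← integral_add (integrable_of_continuous (by fun_prop))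
    (integrable_of_continuous (by fun_prop))]
  congr 1
  funext p
  ring

theorem I2_add_right (J : V → V → ℝ) {F G G' : (V → T) → ℝ} (hF : Continuous F)
    (hG : Continuous G) (hG' : Continuous G') :
    I2 J F (fun α => G α + G' α) = I2 J F G + I2 J F G' := by
  have := W2_cont J
  unfold I2
  rw [← integral_add (integrable_of_continuous (by fun_prop))
    (integrable_of_continuous (by fun_prop))]
  congr 1
  funext p
  ring

theorem W2_rot1 (J : V → V → ℝ) (p : (V → T) × (V → T)) (γ : T) :
    W2 J (p + (fun _ => γ, 0)) = W2 J p := by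
  unfold W2 energy
  congr 2
  · refine Finset.sum_congr rfl fun u _ => Finset.sum_congr rfl fun v _ => ?_
    congr 2
    simp only [Prod.fst_add, Prod.snd_add, Pi.add_apply, add_zero]
    abel
  · refine Finset.sum_congr rfl fun u _ => Finset.sum_congr rfl fun v _ => ?_
    congr 2
    simp only [Prod.fst_add, Prod.snd_add, Pi.add_apply, Pi.sub_apply, add_zero]
    abel

theorem W2_rot2 (J : V → V → ℝ) (p : (V → T) × (V → T)) (γ : T) :
    W2 J (p + (0, fun _ => γ)) = W2 J p := by
  unfold W2 energy
  congr 2
  · refine Finset.sum_congr rfl fun u _ => Finset.sum_congr rfl fun v _ => ?_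
    congr 2
    simp only [Prod.fst_add, Prod.snd_add, Pi.add_apply, add_zero]
    abel
  · refine Finset.sum_congr rfl fun u _ => Finset.sum_congr rfl fun v _ => ?_
    congr 2
    simp only [Prod.fst_add, Prod.snd_add, Pi.add_apply, Pi.sub_apply, add_zero]
    abel

/-- cosine part -/
noncomputable def Uf (o x u v : V) (α : V → T) : ℝ := ct (α o + α x) * ct (α u + α v)

/-- sine part -/
noncomputable def Sf (o x u v : V) (α : V → T) : ℝ := st (α o + α x) * st (α u + α v)

theorem Uf_cont (o x u v : V) : Continuous (Uf o x u v) := by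
  unfold Uf
  fun_prop

theorem Sf_cont (o x u v : V) : Continuous (Sf o x u v) := by
  unfold Sf
  fun_prop

theorem quarter : ((Real.pi / 4 : ℝ) : T) + ((Real.pi / 4 : ℝ) : T) = ((Real.pi / 2 : ℝ) : T) := by
  have h : ((Real.pi / 4 : ℝ) : T) + ((Real.pi / 4 : ℝ) : T) =
      ((Real.pi / 4 + Real.pi / 4 : ℝ) : T) := rfl
  rw [h]
  congr 1
  ring

theorem Uf_rot (o x u v : V) (α : V → T) :
    Uf o x u v (α + fun _ => ((Real.pi / 4 : ℝ) : T)) = Sf o x u v α := by
  have h : ∀ a b : T, (a + ((Real.pi / 4 : ℝ) : T)) + (b + ((Real.pi / 4 : ℝ) : T)) =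
      (a + b) + ((Real.pi / 2 : ℝ) : T) := by
    intro a b
    rw [← quarter]
    abel
  have h2 : ∀ a : T, ct (a + ((Real.pi / 2 : ℝ) : T)) = -st a := fun a =>
    Real.Angle.cos_add_pi_div_two a
  unfold Uf Sf
  simp only [Pi.add_apply]
  rw [h, h, h2, h2]
  ring

theorem I2_rot1 (J : V → V → ℝ) (o x u v : V) (G : (V → T) → ℝ) :
    I2 J (Uf o x u v) G = I2 J (Sf o x u v) G := by
  unfold I2
  have h := integral_add_right_eq_self (μ := (haarV V).prod (haarV V))
    (fun p : (V → T) × (V → T) => (Uf o x u v p.1 * G p.2) * W2 J p)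
    ((fun _ => ((Real.pi / 4 : ℝ) : T)), (0 : V → T))
  rw [← h]
  congr 1
  funext p
  rw [W2_rot1]
  simp only [Prod.fst_add, Prod.snd_add, add_zero]
  rw [Uf_rot]

theorem I2_rot2 (J : V → V → ℝ) (o x u v : V) (F : (V → T) → ℝ) :
    I2 J F (Uf o x u v) = I2 J F (Sf o x u v) := by
  unfold I2
  have h := integral_add_right_eq_self (μ := (haarV V).prod (haarV V))
    (fun p : (V → T) × (V → T) => (F p.1 * Uf o x u v p.2) * W2 J p)
    ((0 : V → T), (fun _ => ((Real.pi / 4 : ℝ) : T)))
  rw [← h]
  congr 1
  funext p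
  rw [W2_rot2]
  simp only [Prod.fst_add, Prod.snd_add, add_zero]
  rw [Uf_rot]

/-- the correlation of four charges in the duplicated variables -/
theorem I2_four (J : V → V → ℝ) (o x u v : V) :
    I2 J (fun α => ct (α o + α x - α u - α v)) (fun α => ct (α o + α x - α u - α v)) =
      4 * I2 J (Sf o x u v) (Sf o x u v) := by
  have e : (fun α : V → T => ct (α o + α x - α u - α v)) =
      fun α => Uf o x u v α + Sf o x u v α := by
    funext α
    unfold Uf Sf
    rw [show α o + α x - α u - α v = (α o + α x) - (α u + α v) by abel, ct_sub]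
  have cU := Uf_cont o x u v
  have cS := Sf_cont o x u v
  have cT : Continuous fun α : V → T => Uf o x u v α + Sf o x u v α := cU.add cS
  rw [e, I2_add_left J cU cS cT, I2_add_right J cU cU cS, I2_add_right J cS cU cS,
    I2_rot1, I2_rot1, I2_rot2]
  ring

/-- the first group of monomials -/
noncomputable def m1 (o x u v : V) (α : V → T) : ℝ :=
  st (α o) * ct (α x) * (st (α u) * ct (α v)) + ct (α o) * st (α x) * (ct (α u) * st (α v))

/-- the second group of monomials -/
noncomputable def m2 (o x u v : V) (α : V → T) : ℝ :=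
  st (α o) * ct (α x) * (ct (α u) * st (α v)) + ct (α o) * st (α x) * (st (α u) * ct (α v))

theorem m1_cont (o x u v : V) : Continuous (m1 o x u v) := by
  unfold m1
  fun_prop

theorem m2_cont (o x u v : V) : Continuous (m2 o x u v) := by
  unfold m2
  fun_prop

theorem I2_m12 (J : V → V → ℝ) (hJ : ∀ u v, 0 ≤ J u v) (o x u v : V) :
    0 ≤ I2 J (m1 o x u v) (m2 o x u v) := by
  classical
  unfold m1 m2
  rw [I2_add_left J (by fun_prop) (by fun_prop) (by fun_prop),
    I2_add_right J (by fun_prop) (by fun_prop) (by fun_prop),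
    I2_add_right J (by fun_prop) (by fun_prop) (by fun_prop)]
  have s : ∀ a : V, IsMono fun α : V → T => st (α a) := fun a => IsMono.st a
  have c : ∀ a : V, IsMono fun α : V → T => ct (α a) := fun a => IsMono.ct a
  have h1 := I2_nonneg J hJ
    (F := fun α => st (α o) * ct (α x) * (st (α u) * ct (α v)))
    (G := fun α => st (α o) * ct (α x) * (ct (α u) * st (α v))) (by fun_prop) (by fun_prop)
    (((s o).mul (c x)).mul ((s u).mul (c v))) (((s o).mul (c x)).mul ((c u).mul (s v)))
  have h2 := I2_nonneg J hJ
    (F := fun α => st (α o) * ct (α x) * (st (α u) * ct (α v)))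
    (G := fun α => ct (α o) * st (α x) * (st (α u) * ct (α v))) (by fun_prop) (by fun_prop)
    (((s o).mul (c x)).mul ((s u).mul (c v))) (((c o).mul (s x)).mul ((s u).mul (c v)))
  have h3 := I2_nonneg J hJ
    (F := fun α => ct (α o) * st (α x) * (ct (α u) * st (α v)))
    (G := fun α => st (α o) * ct (α x) * (ct (α u) * st (α v))) (by fun_prop) (by fun_prop)
    (((c o).mul (s x)).mul ((c u).mul (s v))) (((s o).mul (c x)).mul ((c u).mul (s v)))
  have h4 := I2_nonneg J hJ
    (F := fun α => ct (α o) * st (α x) * (ct (α u) * st (α v)))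
    (G := fun α => ct (α o) * st (α x) * (st (α u) * ct (α v))) (by fun_prop) (by fun_prop)
    (((c o).mul (s x)).mul ((c u).mul (s v))) (((c o).mul (s x)).mul ((s u).mul (c v)))
  linarith

theorem I2_m21 (J : V → V → ℝ) (hJ : ∀ u v, 0 ≤ J u v) (o x u v : V) :
    0 ≤ I2 J (m2 o x u v) (m1 o x u v) := by
  classical
  unfold m1 m2
  rw [I2_add_left J (by fun_prop) (by fun_prop) (by fun_prop),
    I2_add_right J (by fun_prop) (by fun_prop) (by fun_prop),
    I2_add_right J (by fun_prop) (by fun_prop) (by fun_prop)]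
  have s : ∀ a : V, IsMono fun α : V → T => st (α a) := fun a => IsMono.st a
  have c : ∀ a : V, IsMono fun α : V → T => ct (α a) := fun a => IsMono.ct a
  have h1 := I2_nonneg J hJ
    (F := fun α => st (α o) * ct (α x) * (ct (α u) * st (α v)))
    (G := fun α => st (α o) * ct (α x) * (st (α u) * ct (α v))) (by fun_prop) (by fun_prop)
    (((s o).mul (c x)).mul ((c u).mul (s v))) (((s o).mul (c x)).mul ((s u).mul (c v)))
  have h2 := I2_nonneg J hJ
    (F := fun α => st (α o) * ct (α x) * (ct (α u) * st (α v)))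
    (G := fun α => ct (α o) * st (α x) * (ct (α u) * st (α v))) (by fun_prop) (by fun_prop)
    (((s o).mul (c x)).mul ((c u).mul (s v))) (((c o).mul (s x)).mul ((c u).mul (s v)))
  have h3 := I2_nonneg J hJ
    (F := fun α => ct (α o) * st (α x) * (st (α u) * ct (α v)))
    (G := fun α => st (α o) * ct (α x) * (st (α u) * ct (α v))) (by fun_prop) (by fun_prop)
    (((c o).mul (s x)).mul ((s u).mul (c v))) (((s o).mul (c x)).mul ((s u).mul (c v)))
  have h4 := I2_nonneg J hJ
    (F := fun α => ct (α o) * st (α x) * (st (α u) * ct (α v)))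
    (G := fun α => ct (α o) * st (α x) * (ct (α u) * st (α v))) (by fun_prop) (by fun_prop)
    (((c o).mul (s x)).mul ((s u).mul (c v))) (((c o).mul (s x)).mul ((c u).mul (s v)))
  linarith

/-- difference of the two products -/
theorem SS_PP (J : V → V → ℝ) (hJ : ∀ u v, 0 ≤ J u v) (o x u v : V) :
    I2 J (fun α => st (α o - α x) * st (α u - α v)) (fun α => st (α o - α x) * st (α u - α v)) ≤
      I2 J (Sf o x u v) (Sf o x u v) := by
  have c1 := m1_cont o x u v
  have c2 := m2_cont o x u v
  have eS : Sf o x u v = fun α => m1 o x u v α + m2 o x u v α := by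
    funext α
    unfold Sf m1 m2
    rw [st_add, st_add]
    ring
  have eP : (fun α : V → T => st (α o - α x) * st (α u - α v)) =
      fun α => m1 o x u v α + -m2 o x u v α := by
    funext α
    unfold m1 m2
    rw [st_sub, st_sub]
    ring
  have n1 : ∀ F G : (V → T) → ℝ, I2 J F (fun α => -G α) = -I2 J F G := by
    intro F G
    unfold I2
    rw [← integral_neg]
    congr 1
    funext p
    ring
  have n2 : ∀ F G : (V → T) → ℝ, I2 J (fun α => -F α) G = -I2 J F G := by
    intro F G
    unfold I2
    rw [← integral_neg]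
    congr 1
    funext p
    ring
  have c3 : Continuous fun α : V → T => m1 o x u v α + m2 o x u v α := c1.add c2
  have c4 : Continuous fun α : V → T => -m2 o x u v α := c2.neg
  have c5 : Continuous fun α : V → T => m1 o x u v α + -m2 o x u v α := c1.add c4
  rw [eS, eP, I2_add_left J c1 c2 c3, I2_add_right J c1 c1 c2, I2_add_right J c2 c1 c2,
    I2_add_left J c1 c4 c5, I2_add_right J c1 c1 c4,
    I2_add_right J c4 c1 c4, n1, n1, n2, n2]
  have h1 := I2_m12 J hJ o x u v
  have h2 := I2_m21 J hJ o x u v
  linarith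

/-- **the inequality**, unnormalized -/
theorem cov_le (J : V → V → ℝ) (hJ : ∀ u v, 0 ≤ J u v) (o x u v : V) :
    un J (fun θ => ct (θ o - θ x) * ct (θ u - θ v)) * un J (fun _ => 1) -
        un J (fun θ => ct (θ o - θ x)) * un J (fun θ => ct (θ u - θ v)) ≤
      1 / 2 * (un J (fun θ => ct (θ o + θ x - θ u - θ v)) * un J (fun _ => 1)) := by
  have cE : Continuous fun θ : V → T => Real.exp (energy J θ) := by
    unfold energy
    fun_prop
  set F : (V → T) × (V → T) → ℝ := fun p =>
    1 / 2 * ((ct (p.1 o - p.1 x) - ct (p.2 o - p.2 x)) *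
      (ct (p.1 u - p.1 v) - ct (p.2 u - p.2 v))) *
      (Real.exp (energy J p.1) * Real.exp (energy J p.2)) with hF
  set Q : (V → T) × (V → T) → ℝ := fun p =>
    1 / 4 * (ct (p.1 o + p.1 x - p.1 u - p.1 v) + ct (p.2 o + p.2 x - p.2 u - p.2 v)) *
      (Real.exp (energy J p.1) * Real.exp (energy J p.2)) with hQ
  have cF : Continuous F := by rw [hF]; fun_prop
  have cQ : Continuous Q := by rw [hQ]; fun_prop
  have f1 : ∫ p, F p ∂((haarV V).prod (haarV V)) =
      un J (fun θ => ct (θ o - θ x) * ct (θ u - θ v)) * un J (fun _ => 1) -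
        un J (fun θ => ct (θ o - θ x)) * un J (fun θ => ct (θ u - θ v)) := by
    have e : ∀ p : (V → T) × (V → T), F p =
        (1 / 2 * ((ct (p.1 o - p.1 x) * ct (p.1 u - p.1 v) * Real.exp (energy J p.1)) *
          (1 * Real.exp (energy J p.2))) +
        1 / 2 * ((1 * Real.exp (energy J p.1)) *
          (ct (p.2 o - p.2 x) * ct (p.2 u - p.2 v) * Real.exp (energy J p.2)))) -
        (1 / 2 * ((ct (p.1 o - p.1 x) * Real.exp (energy J p.1)) *
          (ct (p.2 u - p.2 v) * Real.exp (energy J p.2))) +
        1 / 2 * ((ct (p.1 u - p.1 v) * Real.exp (energy J p.1)) *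
          (ct (p.2 o - p.2 x) * Real.exp (energy J p.2)))) := by
      intro p
      simp only [hF]
      ring
    simp_rw [e]
    rw [integral_sub (integrable_of_continuous (by fun_prop))
      (integrable_of_continuous (by fun_prop)),
      integral_add (integrable_of_continuous (by fun_prop))
      (integrable_of_continuous (by fun_prop)),
      integral_add (integrable_of_continuous (by fun_prop))
      (integrable_of_continuous (by fun_prop)),
      integral_const_mul, integral_const_mul, integral_const_mul, integral_const_mul,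
      integral_prod_mul (μ := haarV V) (ν := haarV V)
        (fun θ : V → T => ct (θ o - θ x) * ct (θ u - θ v) * Real.exp (energy J θ))
        (fun θ : V → T => 1 * Real.exp (energy J θ)),
      integral_prod_mul (μ := haarV V) (ν := haarV V)
        (fun θ : V → T => 1 * Real.exp (energy J θ))
        (fun θ : V → T => ct (θ o - θ x) * ct (θ u - θ v) * Real.exp (energy J θ)),
      integral_prod_mul (μ := haarV V) (ν := haarV V)
        (fun θ : V → T => ct (θ o - θ x) * Real.exp (energy J θ))
        (fun θ : V → T => ct (θ u - θ v) * Real.exp (energy J θ)),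
      integral_prod_mul (μ := haarV V) (ν := haarV V)
        (fun θ : V → T => ct (θ u - θ v) * Real.exp (energy J θ))
        (fun θ : V → T => ct (θ o - θ x) * Real.exp (energy J θ))]
    unfold un
    ring
  have q1 : ∫ p, Q p ∂((haarV V).prod (haarV V)) =
      1 / 2 * (un J (fun θ => ct (θ o + θ x - θ u - θ v)) * un J (fun _ => 1)) := by
    have e : ∀ p : (V → T) × (V → T), Q p =
        1 / 4 * ((ct (p.1 o + p.1 x - p.1 u - p.1 v) * Real.exp (energy J p.1)) *
          (1 * Real.exp (energy J p.2))) +
        1 / 4 * ((1 * Real.exp (energy J p.1)) *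
          (ct (p.2 o + p.2 x - p.2 u - p.2 v) * Real.exp (energy J p.2))) := by
      intro p
      simp only [hQ]
      ring
    simp_rw [e]
    rw [integral_add (integrable_of_continuous (by fun_prop))
      (integrable_of_continuous (by fun_prop)), integral_const_mul, integral_const_mul,
      integral_prod_mul (μ := haarV V) (ν := haarV V)
        (fun θ : V → T => ct (θ o + θ x - θ u - θ v) * Real.exp (energy J θ))
        (fun θ : V → T => 1 * Real.exp (energy J θ)),
      integral_prod_mul (μ := haarV V) (ν := haarV V)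
        (fun θ : V → T => 1 * Real.exp (energy J θ))
        (fun θ : V → T => ct (θ o + θ x - θ u - θ v) * Real.exp (energy J θ))]
    unfold un
    ring
  rw [← f1, ← q1, integral_dup (μ := haarV V) hdivV cF, integral_dup (μ := haarV V) hdivV cQ]
  have f2 : ∫ p : (V → T) × (V → T), F (p.1 + p.2, p.1 - p.2) ∂((haarV V).prod (haarV V)) =
      2 * I2 J (fun α => st (α o - α x) * st (α u - α v))
        (fun α => st (α o - α x) * st (α u - α v)) := by
    unfold I2
    rw [← integral_const_mul]
    congr 1
    funext p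
    simp only [hF, W2]
    rw [Real.exp_add]
    have a1 : ∀ a b : V, (p.1 + p.2) a - (p.1 + p.2) b = (p.1 a - p.1 b) + (p.2 a - p.2 b) := by
      intro a b
      simp only [Pi.add_apply]
      abel
    have a2 : ∀ a b : V, (p.1 - p.2) a - (p.1 - p.2) b = (p.1 a - p.1 b) - (p.2 a - p.2 b) := by
      intro a b
      simp only [Pi.sub_apply]
      abel
    rw [a1, a1, a2, a2, ct_add, ct_add, ct_sub (p.1 o - p.1 x) (p.2 o - p.2 x),
      ct_sub (p.1 u - p.1 v) (p.2 u - p.2 v)]
    ring
  have q2 : ∫ p : (V → T) × (V → T), Q (p.1 + p.2, p.1 - p.2) ∂((haarV V).prod (haarV V)) =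
      1 / 2 * I2 J (fun α => ct (α o + α x - α u - α v))
        (fun α => ct (α o + α x - α u - α v)) := by
    unfold I2
    rw [← integral_const_mul]
    congr 1
    funext p
    simp only [hQ, W2]
    rw [Real.exp_add]
    have a1 : (p.1 + p.2) o + (p.1 + p.2) x - (p.1 + p.2) u - (p.1 + p.2) v =
        (p.1 o + p.1 x - p.1 u - p.1 v) + (p.2 o + p.2 x - p.2 u - p.2 v) := by
      simp only [Pi.add_apply]
      abel
    have a2 : (p.1 - p.2) o + (p.1 - p.2) x - (p.1 - p.2) u - (p.1 - p.2) v =
        (p.1 o + p.1 x - p.1 u - p.1 v) - (p.2 o + p.2 x - p.2 u - p.2 v) := by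
      simp only [Pi.sub_apply]
      abel
    rw [a1, a2, ct_add, ct_sub (p.1 o + p.1 x - p.1 u - p.1 v)]
    ring
  rw [f2, q2, I2_four]
  have := SS_PP J hJ o x u v
  linarith

end Vale.Agent.P159.T1.NW
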