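import Vale.Agent.P159.T1.NW.Cov
import Vale.Agent.P159.H399.Growth
import Vale.Agent.P159.H950.K2

/-!
Growth of the two-point function in a box with the inverse temperature, from above: the derivative
is at most one half of the sum of the correlations of four charges.
-/

open MeasureTheory Filter Topology
open scoped BigOperators

set_option linter.unusedSectionVars false

namespace Vale.Agent.P159.T1.NW

open Vale.Agent.P159 Vale.Agent.P159.H399 Vale.Agent.P159.H950 Vale.Agent.P159.H454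

section Abs

variable {V : Type*} [Fintype V] [DecidableEq V]

theorem energy_gb (a : V → V → ℝ) (s : ℝ) (θ : V → T) :
    ∑ e : V × V, s * a e.1 e.2 * (ch e.1 e.2).c θ = XY.energy (fun u v => s * a u v) θ := by
  unfold XY.energy
  rw [Fintype.sum_prod_type]
  rfl

theorem gb_eq (a : V → V → ℝ) (s : ℝ) (f : (V → T) → ℝ) :
    gb a s f = XY.un (fun u v => s * a u v) f / XY.un (fun u v => s * a u v) (fun _ => 1) := by
  unfold gb gibbs XY.un
  simp_rw [energy_gb, one_mul]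

theorem un_one_pos (J : V → V → ℝ) : 0 < XY.un J (fun _ => 1) := by
  have h := H556.unG_one_pos J 0 0
  unfold H556.unG at h
  unfold XY.un
  simpa using h

/-- the inequality for the normalized expectations -/
theorem cov_gb {a : V → V → ℝ} (ha : ∀ u v, 0 ≤ a u v) {s : ℝ} (hs : 0 ≤ s) (o x u v : V) :
    gb a s (fun θ => (ch u v).c θ * (ch o x).c θ) - gb a s (ch o x).c * gb a s (ch u v).c ≤
      1 / 2 * gb a s (fun θ => XY.ct (θ o + θ x - θ u - θ v)) := by
  have h := cov_le (fun u v => s * a u v) (fun u v => mul_nonneg hs (ha u v)) o x u v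
  have hZ := un_one_pos (fun u v => s * a u v)
  rw [gb_eq, gb_eq, gb_eq, gb_eq]
  set J : V → V → ℝ := fun u v => s * a u v
  have e1 : XY.un J (fun θ => (ch u v).c θ * (ch o x).c θ) =
      XY.un J (fun θ => XY.ct (θ o - θ x) * XY.ct (θ u - θ v)) := by
    congr 1
    funext θ
    show XY.ct (θ u - θ v) * XY.ct (θ o - θ x) = _
    ring
  have e2 : XY.un J (ch o x).c = XY.un J (fun θ => XY.ct (θ o - θ x)) := rfl
  have e3 : XY.un J (ch u v).c = XY.un J (fun θ => XY.ct (θ u - θ v)) := rfl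
  rw [e1, e2, e3]
  set Z := XY.un J (fun _ => 1)
  rw [← sub_nonneg]
  have e4 : 1 / 2 * (XY.un J (fun θ => XY.ct (θ o + θ x - θ u - θ v)) / Z) -
      (XY.un J (fun θ => XY.ct (θ o - θ x) * XY.ct (θ u - θ v)) / Z -
        XY.un J (fun θ => XY.ct (θ o - θ x)) / Z * (XY.un J (fun θ => XY.ct (θ u - θ v)) / Z)) =
      (1 / 2 * (XY.un J (fun θ => XY.ct (θ o + θ x - θ u - θ v)) * Z) -
        (XY.un J (fun θ => XY.ct (θ o - θ x) * XY.ct (θ u - θ v)) * Z -
        XY.un J (fun θ => XY.ct (θ o - θ x)) * XY.un J (fun θ => XY.ct (θ u - θ v)))) / Z ^ 2 := by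
    field_simp
  rw [e4]
  exact div_nonneg (by linarith) (sq_nonneg _)

/-- growth of the two-point function from above -/
theorem window_abs {a : V → V → ℝ} (ha : ∀ u v, 0 ≤ a u v) (o x : V) {b b' : ℝ} (hb : 0 ≤ b)
    (hbb : b ≤ b') (Q : V × V → ℝ)
    (hQ : ∀ s, b ≤ s → s ≤ b' → ∀ e : V × V, a e.1 e.2 ≠ 0 →
      gb a s (fun θ => XY.ct (θ o + θ x - θ e.1 - θ e.2)) ≤ Q e)
    (hpos : ∀ s, b ≤ s → s ≤ b' → 0 < gb a s (ch o x).c) :
    gb a b' (ch o x).c - gb a b (ch o x).c ≤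
      (b' - b) * (1 / 2 * ∑ e : V × V, a e.1 e.2 * Q e) := by
  set D : ℝ := 1 / 2 * ∑ e : V × V, a e.1 e.2 * Q e with hD
  set F : ℝ → ℝ := fun s => s * D - Real.exp (Real.log (gb a s (ch o x).c)) with hF
  have hder : ∀ s, b ≤ s → s ≤ b' → ∃ D', 0 ≤ D' ∧ HasDerivAt F D' s := by
    intro s hs hs'
    have hs0 : 0 ≤ s := hb.trans hs
    have hp := hpos s hs hs'
    have h1 := log_deriv (XY.haarV V) (fun e : V × V => a e.1 e.2)
      (fun e => ch e.1 e.2) (ch o x) s hp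
    have h2 := (hasDerivAt_id s).mul_const D
    refine ⟨_, ?_, h2.sub h1.exp⟩
    have e1 : Real.exp (Real.log (gibbs (XY.haarV V) (fun e : V × V => s * a e.1 e.2)
        (fun e => ch e.1 e.2) (ch o x).c)) = gb a s (ch o x).c := Real.exp_log hp
    rw [e1, Finset.mul_sum, one_mul, sub_nonneg, hD, Finset.mul_sum]
    refine Finset.sum_le_sum fun e _ => ?_
    have h3 := cov_gb ha hs0 o x e.1 e.2
    by_cases h0 : a e.1 e.2 = 0
    · rw [h0]
      simp
    have h4 := hQ s hs hs' e h0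
    have e2 : gb a s (ch o x).c * (a e.1 e.2 *
        ((gibbs (XY.haarV V) (fun e : V × V => s * a e.1 e.2) (fun e => ch e.1 e.2)
          fun x_1 => (ch e.1 e.2).c x_1 * (ch o x).c x_1) /
          gibbs (XY.haarV V) (fun e : V × V => s * a e.1 e.2) (fun e => ch e.1 e.2)
            (ch o x).c -
          gibbs (XY.haarV V) (fun e : V × V => s * a e.1 e.2) (fun e => ch e.1 e.2)
            (ch e.1 e.2).c)) =
        a e.1 e.2 * (gb a s (fun θ => (ch e.1 e.2).c θ * (ch o x).c θ) -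
          gb a s (ch o x).c * gb a s (ch e.1 e.2).c) := by
      have hp' := hp.ne'
      unfold gb at hp' ⊢
      field_simp
    rw [e2]
    calc a e.1 e.2 * (gb a s (fun θ => (ch e.1 e.2).c θ * (ch o x).c θ) -
          gb a s (ch o x).c * gb a s (ch e.1 e.2).c) ≤ a e.1 e.2 * (1 / 2 * Q e) :=
          mul_le_mul_of_nonneg_left (by linarith) (ha _ _)
      _ = 1 / 2 * (a e.1 e.2 * Q e) := by ring
  have hmon : MonotoneOn F (Set.Icc b b') := by
    refine monotoneOn_of_deriv_nonneg (convex_Icc b b') ?_ ?_ ?_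
    · intro s hs
      obtain ⟨D', -, hD'⟩ := hder s hs.1 hs.2
      exact hD'.continuousAt.continuousWithinAt
    · intro s hs
      rw [interior_Icc] at hs
      obtain ⟨D', -, hD'⟩ := hder s hs.1.le hs.2.le
      exact hD'.differentiableAt.differentiableWithinAt
    · intro s hs
      rw [interior_Icc] at hs
      obtain ⟨D', hD0, hD'⟩ := hder s hs.1.le hs.2.le
      rw [hD'.deriv]
      exact hD0
  have hfin := hmon (Set.left_mem_Icc.2 hbb) (Set.right_mem_Icc.2 hbb) hbb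
  simp only [hF] at hfin
  rw [Real.exp_log (hpos b le_rfl hbb), Real.exp_log (hpos b' hbb le_rfl)] at hfin
  linarith

end Abs

section BoxQ

theorem boxE_add (R : ℕ) (b b' : ℝ) (θ : Ginf) : boxE R (b + b') θ = boxE R b θ + boxE R b' θ := by
  unfold boxE
  simp_rw [add_mul]
  rw [Finset.sum_add_distrib, Finset.sum_add_distrib]
  ring

/-- the correlations of charges in a box are nondecreasing in `b` -/
theorem chargeCorr_mono_b (R : ℕ) {b b' : ℝ} (hb : 0 ≤ b) (hbb : b ≤ b') {k : ℕ} (m : Fin k → ℤ)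
    {x : Fin k → ℤ × ℤ} (hx : ∀ j, x j ∈ box R) : chargeCorr R b m x ≤ chargeCorr R b' m x := by
  have hE : ∀ θ, boxE R b' θ = boxE R b θ + boxE R (b' - b) θ := by
    intro θ
    rw [← boxE_add]
    congr 1
    ring
  rw [chargeCorr_eq R b m hx, chargeCorr_eq R b' m hx,
    div_le_div_iff₀ (exp_pos_int (boxE_cont R b)) (exp_pos_int (boxE_cont R b'))]
  have h := ginibre_mono muInf pi_div2 (boxE_cone R hb) (boxE_cone R (sub_nonneg.2 hbb)) (mchr m x)
  simp_rw [← hE] at h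
  exact h

theorem chargeCorr_le_inf (R : ℕ) {b : ℝ} (hb : 0 ≤ b) {k : ℕ} (m : Fin k → ℤ)
    {x : Fin k → ℤ × ℤ} (hx : ∀ j, x j ∈ box R) : chargeCorr R b m x ≤ chargeInf b m x :=
  ge_of_tendsto (tendsto_chargeInf hb m x)
    ((eventually_ge_atTop R).mono fun _ h => chargeCorr_mono h hb m hx)

/-- four charges -/
theorem gb_four (R : ℕ) (b : ℝ) {x u v : ℤ × ℤ} (h0 : (0 : ℤ × ℤ) ∈ box R) (hx : x ∈ box R)
    (hu : u ∈ box R) (hv : v ∈ box R) :
    gb (fun u v : box R => nn 1 u v) b (fun θ => XY.ct (θ ⟨0, h0⟩ + θ ⟨x, hx⟩ - θ ⟨u, hu⟩ -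
      θ ⟨v, hv⟩)) = chargeCorr R b ![1, 1, -1, -1] ![0, x, u, v] := by
  have h : ∀ θ : box R → T, boxEnergy R b θ =
      ∑ e : box R × box R, b * nn 1 e.1 e.2 * (ch e.1 e.2).c θ := by
    intro θ
    unfold boxEnergy
    rw [Fintype.sum_prod_type]
    refine Finset.sum_congr rfl fun u _ => Finset.sum_congr rfl fun v _ => ?_
    rw [nn_mul b u v]
    rfl
  unfold chargeCorr expect gb gibbs
  simp_rw [h]
  have e1 : ∀ (θ : box R → T) (y : ℤ × ℤ) (hy : y ∈ box R), ext θ y = θ ⟨y, hy⟩ :=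
    fun θ y hy => by
      unfold ext; rw [dif_pos hy]
  have h4 : ∀ w : Fin 4 → Real.Angle, ∑ j : Fin 4, (![1, 1, -1, -1] : Fin 4 → ℤ) j • w j =
      w 0 + w 1 - w 2 - w 3 := by
    intro w
    rw [Fin.sum_univ_four]
    simp only [Matrix.cons_val_zero, Matrix.cons_val_one, Matrix.cons_val, one_smul, neg_smul]
    abel
  have e2 : ∀ θ : box R → T, Real.Angle.cos (∑ j : Fin 4, (![1, 1, -1, -1] : Fin 4 → ℤ) j •
      ext θ ((![0, x, u, v] : Fin 4 → ℤ × ℤ) j)) =
      XY.ct (θ ⟨0, h0⟩ + θ ⟨x, hx⟩ - θ ⟨u, hu⟩ - θ ⟨v, hv⟩) := by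
    intro θ
    have h5 := h4 (fun j => ext θ ((![0, x, u, v] : Fin 4 → ℤ × ℤ) j))
    refine (congrArg Real.Angle.cos h5).trans ?_
    show XY.ct (ext θ 0 + ext θ x - ext θ u - ext θ v) = _
    rw [e1 θ 0 h0, e1 θ x hx, e1 θ u hu, e1 θ v hv]
  simp_rw [e2]
  rfl

/-- **growth of the two-point function in a box with the inverse temperature, from above** -/
theorem box_window {R : ℕ} {b b' : ℝ} (hb : 0 < b) (hbb : b ≤ b') {x : ℤ × ℤ} (hx : x ∈ box R)
    (hpos : 0 < corr R b x) (Q : (ℤ × ℤ) → (ℤ × ℤ) → ℝ)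
    (hQ : ∀ u ∈ box R, ∀ v ∈ box R, nn 1 u v ≠ 0 →
      chargeInf b' ![1, 1, -1, -1] ![0, x, u, v] ≤ Q u v) :
    corr R b' x - corr R b x ≤
      (b' - b) * (1 / 2 * ∑ e : box R × box R, nn 1 e.1 e.2 * Q e.1 e.2) := by
  have h0 : (0 : ℤ × ℤ) ∈ box R := XY.zero_mem_box R
  have hmono : ∀ s, b ≤ s → corr R b x ≤ corr R s x := by
    intro s hs
    rw [XY.corr_box_eq R b hx, XY.corr_box_eq R s hx]
    exact XY.KS_mono_b _ hb.le hs _ _
  rw [corr_gb R b h0 hx, corr_gb R b' h0 hx]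
  refine window_abs (a := fun u v : box R => nn 1 u v) (fun u v => nn_one_nonneg _ _) ⟨0, h0⟩
    ⟨x, hx⟩ hb.le hbb (fun e => Q e.1 e.2) (fun s hs hs' e he => ?_) fun s hs _ => ?_
  · have hs0 : 0 ≤ s := hb.le.trans hs
    rw [gb_four R s h0 hx e.1.2 e.2.2]
    have hm : ∀ j : Fin 4, (![0, x, (e.1 : ℤ × ℤ), (e.2 : ℤ × ℤ)] : Fin 4 → ℤ × ℤ) j ∈ box R := by
      intro j
      fin_cases j
      · exact h0
      · exact hx
      · exact e.1.2
      · exact e.2.2
    exact ((chargeCorr_mono_b R hs0 hs' _ hm).trans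
      (chargeCorr_le_inf R (hb.le.trans hbb) _ hm)).trans (hQ _ e.1.2 _ e.2.2 he)
  · rw [← corr_gb R s h0 hx]
    exact hpos.trans_le (hmono s hs)

end BoxQ

end Vale.Agent.P159.T1.NW
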