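import Vale.Agent.P159.T1.NW.All

/-!
The near critical window, from below.
-/

open MeasureTheory Filter Topology
open scoped BigOperators

namespace Vale.Agent.P159.T1.NW

open Vale.Agent.P159 Vale.Agent.P159.T1

/-- **below the critical point, in the window**: the power law of the critical point, and the
growth of the susceptibility -/
theorem nearCrit (hChi : StmtChi) :
    -- lower bound with the exponent of the critical point
    (∀ ε : ℝ, 0 < ε → ∃ c : ℝ, 0 < c ∧ ∀ b : ℝ, 0 < b → b ≤ bCrit → ∀ x : ℤ × ℤ, x ≠ 0 →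
      (bCrit - b) * ((max |x.1| |x.2| : ℤ) : ℝ) ^
        (2 - 2 * (1 / (2 * Real.pi * helicity bCrit)) + ε) ≤ c →
      c * ((max |x.1| |x.2| : ℤ) : ℝ) ^ (-(1 / (2 * Real.pi * helicity bCrit) + ε)) ≤
        corrInf b x) ∧
    -- both sides
    (∀ ν : ℝ, 0 < ν → ν * (2 - 2 * (1 / (2 * Real.pi * helicity bCrit))) < 1 →
      ∀ ε : ℝ, 0 < ε → ∃ δ : ℝ, 0 < δ ∧ ∃ K : ℝ, ∀ b : ℝ, bCrit - δ < b → b < bCrit →
        ∀ x : ℤ × ℤ, x ≠ 0 → ((max |x.1| |x.2| : ℤ) : ℝ) ≤ (bCrit - b) ^ (-ν) →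
          |Real.log (corrInf b x) + 1 / (2 * Real.pi * helicity bCrit) *
            Real.log ((max |x.1| |x.2| : ℤ) : ℝ)| ≤
            ε * Real.log ((max |x.1| |x.2| : ℤ) : ℝ) + K) ∧
    -- the susceptibility
    (∀ γ : ℝ, 0 < γ → γ * (2 - 2 * (1 / (2 * Real.pi * helicity bCrit))) <
        2 - 1 / (2 * Real.pi * helicity bCrit) →
      ∃ c : ℝ, 0 < c ∧ ∀ b : ℝ, 0 < b → b < bCrit →
        Summable (corrInf b) ∧ c * (bCrit - b) ^ (-γ) ≤ ∑' x : ℤ × ℤ, corrInf b x) :=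
  ⟨win_all, fun _ hν hν1 _ hε => win_two hν hν1 hε, hChi _ kap_pos kap_le win_all⟩

end Vale.Agent.P159.T1.NW
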