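import Vale.Agent.P159.Defs

/-!
Statement of a lattice sum for the near critical window.
-/

namespace Vale.Agent.P159.T1.NW

open Vale.Agent.P159

/-- logarithm of the distance to the origin, at least `0` -/
noncomputable def ll (x : ℤ × ℤ) : ℝ := Real.log (max 1 ((max |x.1| |x.2| : ℤ) : ℝ))

/-- sum over the bonds of a box of the powers of the distances to `0` and `x` -/
def StmtSum : Prop :=
  ∀ κ : ℝ, 0 ≤ κ → κ ≤ 1 / 4 → ∃ C : ℝ, 0 < C ∧ ∀ R : ℕ, 1 ≤ R → ∀ x ∈ box R,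
    ∑ e : box R × box R, nn 1 e.1 e.2 *
      Real.exp (-(κ * (ll e.1 + ll e.2 + ll (x - e.1) + ll (x - e.2)))) ≤
      C * Real.exp ((2 - 4 * κ) * Real.log R)

end Vale.Agent.P159.T1.NW
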