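import Vale.Agent.P159.T1.F.SharpFin
import Vale.Agent.P159.T1.NW.Deriv
import Vale.Agent.P159.T1.NW.Props

/-!
Upper bound of the correlation of four charges at the critical point, two of them at neighbours.
-/

open MeasureTheory Filter Topology
open scoped BigOperators

namespace Vale.Agent.P159.T1.NW

open Vale.Agent.P159 Vale.Agent.P159.H950 Vale.Agent.P159.T1

lemma ll_nonneg (x : ℤ × ℤ) : 0 ≤ ll x := Real.log_nonneg (le_max_left _ _)

lemma ll_zero : ll 0 = 0 := by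
  unfold ll
  simp

lemma ll_neg (x : ℤ × ℤ) : ll (-x) = ll x := by
  unfold ll
  simp

/-- the size of the difference of two points of a box -/
lemma sub_le {N : ℕ} {u v : ℤ × ℤ} (hu : u ∈ box N) (hv : v ∈ box N) :
    max |(u - v).1| |(u - v).2| ≤ ((2 * N : ℕ) : ℤ) := by
  rw [mem_box] at hu hv
  simp only [abs_le, Prod.fst_sub, Prod.snd_sub, max_le_iff] at hu hv ⊢
  push_cast
  omega

lemma ll_sub_of_nn {u v : ℤ × ℤ} (h : nn 1 u v ≠ 0) : ll (u - v) = 0 := by
  have h1 : v = u + (1, 0) ∨ v = u + (0, 1) := by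
    by_contra h2
    apply h
    unfold nn
    rw [if_neg h2]
  unfold ll
  rcases h1 with rfl | rfl <;> simp

/-- the correlation of four charges -/
theorem four_up {b : ℝ} (hb : bCrit ≤ b) {ε : ℝ} (hε : 0 < ε) :
    ∃ K : ℝ, ∀ (N : ℕ), 1 ≤ N → ∀ x ∈ box N, ∀ u ∈ box N, ∀ v ∈ box N, nn 1 u v ≠ 0 →
      chargeInf b ![1, 1, -1, -1] ![0, x, u, v] ≤
        Real.exp (ε * Real.log N + K + 1 / (2 * Real.pi * helicity b) * ll x) *
          Real.exp (-(1 / (2 * Real.pi * helicity b) *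
            (ll u + ll v + ll (x - u) + ll (x - v)))) := by
  obtain ⟨K, hK⟩ := F.sharpFin.2.2.2.2.2 b hb 4 ![1, 1, -1, -1]
    (by rw [Fin.sum_univ_four]; rfl) ε hε
  refine ⟨ε * Real.log 2 + K, fun N hN x hx u hu v hv huv => ?_⟩
  have h0 : (0 : ℤ × ℤ) ∈ box N := XY.zero_mem_box N
  have hmem : ∀ i : Fin 4, (![0, x, u, v] : Fin 4 → ℤ × ℤ) i ∈ box N := by
    intro i
    fin_cases i
    · exact h0
    · exact hx
    · exact hu
    · exact hv
  obtain ⟨hp, h1⟩ := hK ![0, x, u, v] (2 * N) (by omega) fun i j => sub_le (hmem i) (hmem j)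
  have h2 := (abs_le.1 h1).2
  have e1 : ∑ i : Fin 4, ∑ j : Fin 4, ((![1, 1, -1, -1] : Fin 4 → ℤ) i *
      (![1, 1, -1, -1] : Fin 4 → ℤ) j : ℝ) *
      Real.log (max 1 ((max |((![0, x, u, v] : Fin 4 → ℤ × ℤ) i -
        (![0, x, u, v] : Fin 4 → ℤ × ℤ) j).1| |((![0, x, u, v] : Fin 4 → ℤ × ℤ) i -
        (![0, x, u, v] : Fin 4 → ℤ × ℤ) j).2| : ℤ) : ℝ)) =
      2 * (ll x - ll u - ll v - ll (x - u) - ll (x - v)) := by
    have e2 : ∀ y : ℤ × ℤ, Real.log (max 1 ((max |y.1| |y.2| : ℤ) : ℝ)) = ll y := fun _ => rfl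
    simp_rw [e2]
    simp only [Fin.sum_univ_four, Matrix.cons_val_zero, Matrix.cons_val_one, Matrix.cons_val,
      sub_self, ll_zero, zero_sub, sub_zero, ll_neg]
    have s1 : ll (u - x) = ll (x - u) := by rw [← ll_neg, neg_sub]
    have s2 : ll (v - x) = ll (x - v) := by rw [← ll_neg, neg_sub]
    have s3 : ll (v - u) = ll (u - v) := by rw [← ll_neg, neg_sub]
    rw [s1, s2, s3, ll_sub_of_nn huv]
    push_cast
    ring
  rw [e1] at h2
  rw [← Real.exp_add, ← Real.log_le_iff_le_exp hp]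
  have hN0 : (0 : ℝ) < N := by exact_mod_cast hN
  have e3 : Real.log ((2 * N : ℕ) : ℝ) = Real.log 2 + Real.log N := by
    push_cast
    rw [Real.log_mul (by norm_num) hN0.ne']
  rw [e3] at h2
  have e4 : 1 / (4 * Real.pi * helicity b) *
      (2 * (ll x - ll u - ll v - ll (x - u) - ll (x - v))) =
      1 / (2 * Real.pi * helicity b) * (ll x - ll u - ll v - ll (x - u) - ll (x - v)) := by
    have hY := F.hel_pos hb
    have hpi := Real.pi_pos
    field_simp
    ring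
  rw [e4] at h2
  nlinarith [h2]

end Vale.Agent.P159.T1.NW
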