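import Vale.Agent.P159.T1.D.H857.Top
import Vale.Agent.P159.T1.S.H598.Fin

/-!
The sharp lower bound on the axis for the two-point function of a box.
-/

open MeasureTheory Filter Topology

namespace Vale.Agent.P159.T1.NW

open Vale.Agent.P159 Vale.Agent.P159.T1.H254 Vale.Agent.P159.T1.D Vale.Agent.P159.T1.H857
open Vale.Agent.P159.T1.D.H857
open Vale.Agent.P159.H353 (wI wI_nonneg)

section top

variable {U : Finset (ℤ × ℤ)}

/-- the two-point function of a box is at least the ratio of the height sums of a slit domain -/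
theorem top_box {r : ℕ} (hU : IsSlit U r) {b : ℝ} (hb : 0 ≤ b) {R : ℕ} (hR : AU U ⊆ box R) :
    Zs b U 1 0 ≤ corr R b ((r : ℤ), 0) * Z b U := by
  have hch : ∀ v, chg (yD hU) (xD hU) 1 v = chg (xD hU) (yD hU) (-1) v := by
    intro v
    unfold chg
    split_ifs <;> ring
  obtain ⟨h1, h2, h3⟩ := corr_dual (H0 := Ht U) (H1 := Ht U) (pD (U := U)) qD
    (J := fun _ => b) (fun _ => hb) (yD hU) (xD hU) (fun h e => dh h.1 e.1)
    (fun h e => dh h.1 e.1 + sec U 1 e.1)
    (fun h h' hh => Subtype.ext (dh_inj h.2 h'.2 fun e he => congrFun hh ⟨e, he⟩))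
    (fun h h' hh => Subtype.ext (dh_inj h.2 h'.2 fun e he => by
      have := congrFun hh ⟨e, he⟩
      simp only at this
      linarith))
    (fun n => by
      have h1 := exact_U hU 0 n
      simp only [chg_zero, zero_add, zero_mul, sub_zero] at h1
      rw [h1]
      constructor
      · rintro ⟨H, h2, h3⟩
        exact ⟨⟨H, h2⟩, funext fun e => h3 e⟩
      · rintro ⟨H, h2⟩
        exact ⟨H.1, H.2, fun e => congrFun h2 e⟩)
    (fun n => by
      have h1 := exact_U hU (-1) n
      rw [show (∀ v, chg (yD hU) (xD hU) 1 v + dvA pD qD n v = 0) ↔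
        ∀ v, chg (xD hU) (yD hU) (-1) v + dvA pD qD n v = 0 from
        forall_congr' fun v => by rw [hch]]
      rw [h1]
      constructor
      · rintro ⟨H, h2, h3⟩
        refine ⟨⟨H, h2⟩, funext fun e => ?_⟩
        show dh H e.1 + sec U 1 e.1 = n e
        rw [sec_one, ← h3 e]
        ring
      · rintro ⟨H, h2⟩
        refine ⟨H.1, H.2, fun e => ?_⟩
        have h3 : dh H.1 e.1 + sec U 1 e.1 = n e := congrFun h2 e
        rw [sec_one] at h3
        rw [← h3]
        ring)
  have e0 : ZHt (fun _ : DE U => b) (fun (h : Ht U) (e : DE U) => dh h.1 e.1) = Z b U := by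
    unfold ZHt Z wt
    refine tsum_congr fun h => ?_
    rw [← Finset.prod_coe_sort (bd U)]
    simp
  have e1 : ZHt (fun _ : DE U => b) (fun (h : Ht U) (e : DE U) => dh h.1 e.1 + sec U 1 e.1) =
      Zs b U 1 0 := by
    unfold ZHt Zs wt ch
    refine tsum_congr fun h => ?_
    rw [← Finset.prod_coe_sort (bd U)]
    simp
  rw [e0, e1] at h3
  rw [e0] at h1
  have hle : XY.corr (matJ (pD (U := U)) qD fun _ => b) (yD hU) (xD hU) ≤
      corr R b ((r : ℤ), 0) := by
    rw [XY.corr_comm]
    have h4 : XY.corr (matJ (pD (U := U)) qD fun _ => b) (xD hU) (yD hU) =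
        XY.corr (fun u v : DA U => (matJ (pD (U := U)) qD (fun _ => b) u v +
          matJ (pD (U := U)) qD (fun _ => b) v u) / 2) (xD hU) (yD hU) := by
      unfold XY.corr XY.ev XY.un XY.part
      simp_rw [XY.energy_symm]
    have h5 : XY.corr (fun u v : DA U => (matJ (pD (U := U)) qD (fun _ => b) u v +
          matJ (pD (U := U)) qD (fun _ => b) v u) / 2) (xD hU) (yD hU) ≤
        XY.KS (AU U) b (0, 0) ((r : ℤ), 0) := by
      rw [XY.KS_of_mem b (zero_mem_AU hU) (r_mem_AU hU)]
      refine XY.corr_mono (fun u v => ?_) (fun u v => ?_) _ _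
      · have := matJ_nonneg (p := pD (U := U)) (q := qD) (J := fun _ => b) (fun _ => hb) u v
        have := matJ_nonneg (p := pD (U := U)) (q := qD) (J := fun _ => b) (fun _ => hb) v u
        positivity
      · have h6 := matJ_le hb u v
        have h7 := matJ_le hb v u
        unfold XY.A
        rw [XY.nn_eq] at h6 h7
        linarith
    rw [h4, XY.corr_box_eq R b (hR (r_mem_AU hU))]
    exact h5.trans (XY.KS_mono hR hb _ _)
  rw [h3, div_le_iff₀ h1] at hle
  exact hle


theorem AU_SB (R r : ℕ) : AU (SB R r) ⊆ box (r + R) := by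
  intro v hv
  unfold AU at hv
  rw [Finset.mem_union, Finset.mem_image, Finset.mem_image] at hv
  have key : ∀ e : Bnd, e ∈ bd (SB R r) → bs e ∈ box (r + R) ∧ bt e ∈ box (r + R) := by
    intro e he
    rw [mem_bd] at he
    obtain ⟨⟨i, j⟩, d⟩ := e
    rw [mem_box, mem_box]
    unfold bs bt
    cases d
    · simp only [lf, rt, mem_SBt, Bool.false_eq_true, if_false] at he ⊢
      push_cast
      simp only [abs_le]
      omega
    · simp only [lf, rt, mem_SBt, if_true] at he ⊢
      push_cast
      simp only [abs_le]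
      omega
  rcases hv with ⟨e, he, rfl⟩ | ⟨e, he, rfl⟩
  · exact (key e he).1
  · exact (key e he).2

end top

end Vale.Agent.P159.T1.NW
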