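import Vale.Agent.P159.T1.NW.Four
import Vale.Agent.P159.T1.NW.AxisBox

/-!
The near critical window: below the critical point the two-point function keeps the critical
power as long as `(b_c - b) |x| ^ (2 - 2 κ + ε)` is small.
-/

open MeasureTheory Filter Topology
open scoped BigOperators

namespace Vale.Agent.P159.T1.NW

open Vale.Agent.P159 Vale.Agent.P159.H950 Vale.Agent.P159.T1

theorem KS_box_pos {b : ℝ} (hb : 0 < b) (R : ℕ) : ∀ r : ℕ, r ≤ R →
    0 < XY.KS (box R) b 0 ((r : ℤ), 0) := by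
  intro r
  induction r with
  | zero =>
    intro _
    have : (((0 : ℕ) : ℤ), (0 : ℤ)) = (0 : ℤ × ℤ) := rfl
    rw [this, XY.KS_self b (XY.zero_mem_box R)]
    exact one_pos
  | succ n ih =>
    intro hn
    have h1 := ih (by omega)
    have m1 : ((n : ℤ), (0 : ℤ)) ∈ box R := by
      rw [mem_box]
      simp only [abs_le]
      omega
    have m2 : (((n + 1 : ℕ) : ℤ), (0 : ℤ)) ∈ box R := by
      rw [mem_box]
      simp only [abs_le]
      omega
    have h2 : 0 < XY.KS (box R) b ((n : ℤ), 0) (((n + 1 : ℕ) : ℤ), 0) := by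
      rw [XY.KS_of_mem b m1 m2]
      refine XY.corr_pos (fun u v => mul_nonneg hb.le (XY.A_nonneg _ _)) (mul_pos hb ?_)
      rw [XY.A_eq, if_pos]
      · norm_num
      · push_cast
        simp
    exact (mul_pos h1 h2).trans_le (XY.KS_supermul (box R) hb.le _ _ _)

theorem corr_pos {b : ℝ} (hb : 0 < b) {R r : ℕ} (h : r ≤ R) : 0 < corr R b ((r : ℤ), 0) := by
  have m1 : ((r : ℤ), (0 : ℤ)) ∈ box R := by
    rw [mem_box]
    simp only [abs_le]
    omega
  rw [XY.corr_box_eq R b m1]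
  exact KS_box_pos hb R r h

theorem corr_le_inf {b : ℝ} (hb : 0 ≤ b) {R r : ℕ} (h : r ≤ R) :
    corr R b ((r : ℤ), 0) ≤ corrInf b ((r : ℤ), 0) := by
  have m1 : ((r : ℤ), (0 : ℤ)) ∈ box R := by
    rw [mem_box]
    simp only [abs_le]
    omega
  rw [XY.corr_box_eq R b m1, XY.corrInf_eq hb]
  have h8 := XY.CI_eq hb 0 ((r : ℤ), 0)
  rw [sub_zero] at h8
  rw [← h8]
  exact XY.KS_le_CI _ hb _ _

/-- the sharp lower bound on the axis in a box -/
theorem axis_low {b : ℝ} (hb : bCrit ≤ b) {ε : ℝ} (hε : 0 < ε) : ∃ c : ℝ, 0 < c ∧ ∃ A r0 : ℕ,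
    1 ≤ r0 ∧ ∀ r : ℕ, r0 ≤ r →
      c * (r : ℝ) ^ (-(1 / (2 * Real.pi * helicity b) + ε)) ≤ corr (r + A * r) b ((r : ℤ), 0) :=
  axisBox (S.H598.l1_of_good F.goodS F.key D.H172.low) (S.H857.stmtLowP_of D.H172.low)
    (H565.stmtUpM D.stmtU) hb hε

lemma ll_axis {r : ℕ} (hr : 1 ≤ r) : ll ((r : ℤ), 0) = Real.log r := by
  unfold ll
  have h1 : ((max |((r : ℤ), (0 : ℤ)).1| |((r : ℤ), (0 : ℤ)).2| : ℤ) : ℝ) = r := by
    simp
  have h2 : (1 : ℝ) ≤ r := by exact_mod_cast hr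
  rw [h1, max_eq_right h2]

/-- the window on the axis -/
theorem win_axis (hS : StmtSum) {ε : ℝ} (hε : 0 < ε) :
    ∃ c : ℝ, 0 < c ∧ ∀ b : ℝ, 0 < b → b ≤ bCrit → ∀ r : ℕ, 1 ≤ r →
      (bCrit - b) * (r : ℝ) ^ (2 - 2 * (1 / (2 * Real.pi * helicity bCrit)) + ε) ≤ c →
      c * (r : ℝ) ^ (-(1 / (2 * Real.pi * helicity bCrit) + ε)) ≤ corrInf b ((r : ℤ), 0) := by
  have hbc := H170.bCrit_pos
  have hY := F.hel_pos (le_refl bCrit)
  have hpi := Real.pi_pos
  obtain ⟨c0, hc0, A, r0, hr0, hlow⟩ := axis_low (le_refl bCrit) (ε := ε / 3) (by positivity)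
  obtain ⟨K, hK⟩ := four_up (le_refl bCrit) (ε := ε / 3) (by positivity)
  set κ : ℝ := 1 / (2 * Real.pi * helicity bCrit) with hκ
  have hκ0 : 0 < κ := by positivity
  have hκ4 : κ ≤ 1 / 4 := F.sharpFin.2.1.2.1
  obtain ⟨C, hC, hsum⟩ := hS κ hκ0.le hκ4
  obtain ⟨c1, hc1, hsmall⟩ := F.small_all (b := bCrit / 2) (κ := κ) (ε := ε) (by positivity) r0
  set a : ℝ := Real.log ((1 + A : ℕ) : ℝ) with ha
  set C' : ℝ := C * Real.exp ((ε / 3 + 2 - 4 * κ) * a + K) with hC'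
  have hC'0 : 0 < C' := by positivity
  refine ⟨min (min c1 (c0 / 2)) (min (bCrit / 2) (c0 / C')), by positivity,
    fun b hb hbb r hr hw => ?_⟩
  set c := min (min c1 (c0 / 2)) (min (bCrit / 2) (c0 / C')) with hc
  have k1 : c ≤ c1 := (min_le_left _ _).trans (min_le_left _ _)
  have k2 : c ≤ c0 / 2 := (min_le_left _ _).trans (min_le_right _ _)
  have k3 : c ≤ bCrit / 2 := (min_le_right _ _).trans (min_le_left _ _)
  have k4 : c ≤ c0 / C' := (min_le_right _ _).trans (min_le_right _ _)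
  have hr1 : (1 : ℝ) ≤ r := by exact_mod_cast hr
  have hrR : (0 : ℝ) < r := by linarith
  have hL : 0 ≤ Real.log r := Real.log_nonneg hr1
  set L := Real.log r with hLdef
  have hrp : 0 ≤ (r : ℝ) ^ (-(κ + ε)) := Real.rpow_nonneg hrR.le _
  rcases lt_or_ge r r0 with h | h
  · -- small distances
    have h1 : (1 : ℝ) ≤ (r : ℝ) ^ (2 - 2 * κ + ε) := Real.one_le_rpow hr1 (by linarith)
    have h2 : bCrit - b ≤ bCrit / 2 := by
      have h3 : (bCrit - b) * 1 ≤ (bCrit - b) * (r : ℝ) ^ (2 - 2 * κ + ε) :=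
        mul_le_mul_of_nonneg_left h1 (by linarith)
      linarith
    have h4 := hsmall r h
    have h5 : corrInf (bCrit / 2) ((r : ℤ), 0) ≤ corrInf b ((r : ℤ), 0) := by
      rw [XY.corrInf_eq (by positivity), XY.corrInf_eq hb.le]
      exact XY.C_mono_b (by positivity) (by linarith) _
    exact (mul_le_mul_of_nonneg_right k1 hrp).trans (h4.trans h5)
  -- large distances
  set R := r + A * r with hR
  have hRr : r ≤ R := by omega
  have hR1 : 1 ≤ R := by omega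
  have hx : ((r : ℤ), (0 : ℤ)) ∈ box R := by
    rw [mem_box]
    simp only [abs_le]
    omega
  have hlogR : Real.log R = a + L := by
    have : ((R : ℕ) : ℝ) = ((1 + A : ℕ) : ℝ) * r := by
      rw [hR]
      push_cast
      ring
    rw [this, Real.log_mul (by positivity) hrR.ne']
  have h1 := box_window (R := R) hb hbb hx (corr_pos hb hRr)
    (fun u v => Real.exp (ε / 3 * Real.log R + K + κ * ll ((r : ℤ), 0)) *
      Real.exp (-(κ * (ll u + ll v + ll ((((r : ℤ), 0) : ℤ × ℤ) - u) + ll ((((r : ℤ), 0) : ℤ × ℤ) - v)))))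
    (fun u hu v hv huv => hK R hR1 _ hx u hu v hv huv)
  have h2 : ∑ e : box R × box R, nn 1 e.1 e.2 *
      (Real.exp (ε / 3 * Real.log R + K + κ * ll ((r : ℤ), 0)) *
      Real.exp (-(κ * (ll e.1 + ll e.2 + ll ((((r : ℤ), 0) : ℤ × ℤ) - e.1) + ll ((((r : ℤ), 0) : ℤ × ℤ) - e.2))))) =
      Real.exp (ε / 3 * Real.log R + K + κ * ll ((r : ℤ), 0)) *
      ∑ e : box R × box R, nn 1 e.1 e.2 *
      Real.exp (-(κ * (ll e.1 + ll e.2 + ll ((((r : ℤ), 0) : ℤ × ℤ) - e.1) +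
        ll ((((r : ℤ), 0) : ℤ × ℤ) - e.2)))) := by
    rw [Finset.mul_sum]
    exact Finset.sum_congr rfl fun e _ => by ring
  rw [h2] at h1
  have h3 := hsum R hR1 _ hx
  rw [ll_axis hr, ← hLdef, hlogR] at h1
  rw [hlogR] at h3
  have h4 : Real.exp (ε / 3 * (a + L) + K + κ * L) *
      ∑ e : box R × box R, nn 1 e.1 e.2 *
      Real.exp (-(κ * (ll e.1 + ll e.2 + ll ((((r : ℤ), 0) : ℤ × ℤ) - e.1) +
        ll ((((r : ℤ), 0) : ℤ × ℤ) - e.2)))) ≤ C' * Real.exp ((2 - 3 * κ + ε / 3) * L) := by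
    refine (mul_le_mul_of_nonneg_left h3 (Real.exp_pos _).le).trans (le_of_eq ?_)
    rw [hC', mul_left_comm, ← Real.exp_add, mul_assoc, ← Real.exp_add]
    congr 2
    ring
  have h5 := hlow r h
  have e1 : (r : ℝ) ^ (-(κ + ε / 3)) = Real.exp (-(κ + ε / 3) * L) := by
    rw [Real.rpow_def_of_pos hrR, mul_comm]
  have e2 : (r : ℝ) ^ (2 - 2 * κ + ε) = Real.exp ((2 - 2 * κ + ε) * L) := by
    rw [Real.rpow_def_of_pos hrR, mul_comm]
  have e3 : (r : ℝ) ^ (-(κ + ε)) = Real.exp (-(κ + ε) * L) := by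
    rw [Real.rpow_def_of_pos hrR, mul_comm]
  rw [e1] at h5
  rw [e2] at hw
  rw [e3]
  have hd : 0 ≤ bCrit - b := by linarith
  have h6 : (bCrit - b) * (C' * Real.exp ((2 - 3 * κ + ε / 3) * L)) ≤
      c0 * Real.exp (-(κ + ε / 3) * L) := by
    have h7 : (bCrit - b) * Real.exp ((2 - 2 * κ + 2 * ε / 3) * L) ≤ c0 / C' := by
      refine le_trans ?_ (hw.trans k4)
      refine mul_le_mul_of_nonneg_left (Real.exp_le_exp.2 ?_) hd
      exact mul_le_mul_of_nonneg_right (by linarith) hL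
    rw [le_div_iff₀ hC'0] at h7
    have e4 : Real.exp ((2 - 3 * κ + ε / 3) * L) =
        Real.exp ((2 - 2 * κ + 2 * ε / 3) * L) * Real.exp (-(κ + ε / 3) * L) := by
      rw [← Real.exp_add]
      congr 1
      ring
    rw [e4]
    have h8 := mul_le_mul_of_nonneg_right h7 (Real.exp_pos (-(κ + ε / 3) * L)).le
    calc (bCrit - b) * (C' * (Real.exp ((2 - 2 * κ + 2 * ε / 3) * L) *
          Real.exp (-(κ + ε / 3) * L))) =
          (bCrit - b) * Real.exp ((2 - 2 * κ + 2 * ε / 3) * L) * C' *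
          Real.exp (-(κ + ε / 3) * L) := by ring
      _ ≤ _ := h8
  have h9 : corr R bCrit ((r : ℤ), 0) - corr R b ((r : ℤ), 0) ≤
      c0 / 2 * Real.exp (-(κ + ε / 3) * L) := by
    refine h1.trans ?_
    have h10 : (bCrit - b) * (1 / 2 * (Real.exp (ε / 3 * (a + L) + K + κ * L) *
      ∑ e : box R × box R, nn 1 e.1 e.2 *
      Real.exp (-(κ * (ll e.1 + ll e.2 + ll ((((r : ℤ), 0) : ℤ × ℤ) - e.1) +
        ll ((((r : ℤ), 0) : ℤ × ℤ) - e.2)))))) ≤
        (bCrit - b) * (1 / 2 * (C' * Real.exp ((2 - 3 * κ + ε / 3) * L))) :=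
      mul_le_mul_of_nonneg_left (mul_le_mul_of_nonneg_left h4 (by norm_num)) hd
    linarith
  have h11 : c0 / 2 * Real.exp (-(κ + ε / 3) * L) ≤ corr R b ((r : ℤ), 0) := by
    linarith
  refine le_trans ?_ (h11.trans (corr_le_inf hb.le hRr))
  refine mul_le_mul k2 (Real.exp_le_exp.2 ?_) (Real.exp_pos _).le (by positivity)
  exact mul_le_mul_of_nonneg_right (by linarith) hL

end Vale.Agent.P159.T1.NW
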